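import Mathlib

/-!
# P045: Ryser's conjecture for hypergraphs of small maximum degree

`V` is the (finite) vertex set, `c : V → Fin r` the partition into `r` parts, and
`E : Finset (Finset V)` the set of edges.
-/

namespace Vale.Agent.Results.P045.DegreeRyser

open Finset

variable {V : Type} [Fintype V] [DecidableEq V]

/-- `E` is an `r`-partite `r`-uniform hypergraph with parts `c ⁻¹ {0}, …, c ⁻¹ {r - 1}`:
every edge contains exactly one vertex of each part. -/
def IsPartite {r : ℕ} (c : V → Fin r) (E : Finset (Finset V)) : Prop :=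
  ∀ e ∈ E, ∀ i : Fin r, ∃! v, v ∈ e ∧ c v = i

/-- `C` is a vertex cover of `E`: it meets every edge. -/
def IsCover (E : Finset (Finset V)) (C : Finset V) : Prop :=
  ∀ e ∈ E, ∃ v ∈ e, v ∈ C

/-- `M` is a matching of `E`: a set of pairwise disjoint edges. -/
def IsMatching (E M : Finset (Finset V)) : Prop :=
  M ⊆ E ∧ ∀ e ∈ M, ∀ f ∈ M, e ≠ f → Disjoint e f

/-- The covering number `τ(E)`: the least size of a vertex cover. -/
noncomputable def coverNumber (E : Finset (Finset V)) : ℕ :=
  sInf {k : ℕ | ∃ C : Finset V, IsCover E C ∧ C.card = k}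

/-- The matching number `ν(E)`: the largest size of a matching. -/
noncomputable def matchingNumber (E : Finset (Finset V)) : ℕ :=
  sSup {k : ℕ | ∃ M : Finset (Finset V), IsMatching E M ∧ M.card = k}

/-- The degree of a vertex: the number of edges containing it. -/
def deg (E : Finset (Finset V)) (v : V) : ℕ := (E.filter (fun e => v ∈ e)).card

/-! ### Caro–Wei for families of nonempty sets -/

/-- Number of members of `S` that meet `e` (including `e` itself). -/
def cd (S : Finset (Finset V)) (e : Finset V) : ℕ :=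
  (S.filter (fun f => ¬ Disjoint f e)).card

lemma cd_mono {S T : Finset (Finset V)} (h : S ⊆ T) (e : Finset V) : cd S e ≤ cd T e :=
  card_le_card (filter_subset_filter _ h)

lemma caroWei (n : ℕ) : ∀ S : Finset (Finset V), S.card ≤ n → (∀ e ∈ S, e.Nonempty) →
    ∃ M, IsMatching S M ∧ (∑ e ∈ S, (1 : ℚ) / (cd S e : ℚ)) ≤ M.card := by
  induction n with
  | zero =>
    intro S hS _
    have : S = ∅ := card_eq_zero.mp (Nat.le_zero.mp hS)
    subst this
    exact ⟨∅, ⟨by simp, by simp⟩, by simp⟩
  | succ n ih =>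
    intro S hS hne
    rcases S.eq_empty_or_nonempty with rfl | hSne
    · exact ⟨∅, ⟨by simp, by simp⟩, by simp⟩
    obtain ⟨e, he, hmin⟩ := exists_min_image S (fun e => cd S e) hSne
    have hself : e ∈ S.filter (fun f => ¬ Disjoint f e) := by
      rw [mem_filter]
      refine ⟨he, ?_⟩
      rw [disjoint_self_iff_empty]
      exact (hne e he).ne_empty
    have hsub : S.filter (fun f => Disjoint f e) ⊆ S := filter_subset _ _
    have hcard : (S.filter (fun f => Disjoint f e)).card ≤ n := by
      have h1 := card_filter_add_card_filter_not (s := S) (fun f => Disjoint f e)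
      have h2 : 0 < (S.filter (fun f => ¬ Disjoint f e)).card := card_pos.mpr ⟨e, hself⟩
      omega
    obtain ⟨M, hM, hMc⟩ := ih _ hcard (fun f hf => hne f (hsub hf))
    have heM : e ∉ M := by
      intro h
      have := hM.1 h
      rw [mem_filter] at this
      have h2 := (mem_filter.mp hself).2
      exact h2 this.2
    refine ⟨insert e M, ⟨?_, ?_⟩, ?_⟩
    · intro f hf
      rcases mem_insert.mp hf with rfl | hf
      · exact he
      · exact hsub (hM.1 hf)
    · intro f hf g hg hfg
      rcases mem_insert.mp hf with rfl | hf'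
      · rcases mem_insert.mp hg with rfl | hg'
        · exact absurd rfl hfg
        · exact (mem_filter.mp (hM.1 hg')).2.symm
      · rcases mem_insert.mp hg with rfl | hg'
        · exact (mem_filter.mp (hM.1 hf')).2
        · exact hM.2 f hf' g hg' hfg
    · rw [card_insert_of_notMem heM]
      have hcdpos : (0 : ℚ) < cd S e := by
        have : 0 < cd S e := card_pos.mpr ⟨e, hself⟩
        exact_mod_cast this
      rw [← sum_filter_add_sum_filter_not S (fun f => Disjoint f e)]
      have hA : ∑ f ∈ S.filter (fun f => Disjoint f e), (1 : ℚ) / (cd S f : ℚ) ≤ M.card := by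
        refine le_trans (sum_le_sum ?_) hMc
        intro f hf
        have hpos : (0 : ℚ) < cd (S.filter (fun f => Disjoint f e)) f := by
          have : 0 < cd (S.filter (fun f => Disjoint f e)) f := by
            refine card_pos.mpr ⟨f, ?_⟩
            rw [mem_filter]
            refine ⟨hf, ?_⟩
            rw [disjoint_self_iff_empty]
            exact (hne f (hsub hf)).ne_empty
          exact_mod_cast this
        have hle : (cd (S.filter (fun f => Disjoint f e)) f : ℚ) ≤ cd S f := by
          exact_mod_cast cd_mono hsub f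
        exact one_div_le_one_div_of_le hpos hle
      have hB : ∑ f ∈ S.filter (fun f => ¬ Disjoint f e), (1 : ℚ) / (cd S f : ℚ) ≤ 1 := by
        calc ∑ f ∈ S.filter (fun f => ¬ Disjoint f e), (1 : ℚ) / (cd S f : ℚ)
            ≤ ∑ f ∈ S.filter (fun f => ¬ Disjoint f e), (1 : ℚ) / (cd S e : ℚ) := by
              refine sum_le_sum ?_
              intro f hf
              have hf' := (mem_filter.mp hf).1
              have : (cd S e : ℚ) ≤ cd S f := by exact_mod_cast hmin f hf'
              exact one_div_le_one_div_of_le hcdpos this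
          _ = 1 := by
              rw [sum_const, nsmul_eq_mul]
              have : ((S.filter (fun f => ¬ Disjoint f e)).card : ℚ) = cd S e := rfl
              rw [this]
              field_simp
      push_cast
      linarith

/-! ### Counting -/

/-- The neighbour bound: `cd S e ≤ 1 + ∑_{v ∈ e} (deg v - 1)`. -/
lemma cd_le (S : Finset (Finset V)) (e : Finset V) (he : e ∈ S) :
    cd S e ≤ 1 + ∑ v ∈ e, (deg S v - 1) := by
  have hsub : S.filter (fun f => ¬ Disjoint f e) ⊆
      insert e (e.biUnion (fun v => (S.filter (fun f => v ∈ f)).erase e)) := by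
    intro f hf
    rw [mem_filter, not_disjoint_iff] at hf
    obtain ⟨hfS, v, hvf, hve⟩ := hf
    by_cases hfe : f = e
    · exact mem_insert.mpr (Or.inl hfe)
    · refine mem_insert.mpr (Or.inr ?_)
      rw [mem_biUnion]
      exact ⟨v, hve, mem_erase.mpr ⟨hfe, mem_filter.mpr ⟨hfS, hvf⟩⟩⟩
  calc cd S e ≤ (insert e (e.biUnion (fun v => (S.filter (fun f => v ∈ f)).erase e))).card :=
        card_le_card hsub
    _ ≤ (e.biUnion (fun v => (S.filter (fun f => v ∈ f)).erase e)).card + 1 :=
        card_insert_le _ _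
    _ ≤ (∑ v ∈ e, ((S.filter (fun f => v ∈ f)).erase e).card) + 1 :=
        Nat.add_le_add_right card_biUnion_le 1
    _ = 1 + ∑ v ∈ e, (deg S v - 1) := by
        rw [add_comm]
        congr 1
        refine sum_congr rfl ?_
        intro v hv
        rw [card_erase_of_mem (mem_filter.mpr ⟨he, hv⟩)]
        rfl

/-- Double counting. -/
lemma double_count (S : Finset (Finset V)) (g : V → ℚ) :
    ∑ e ∈ S, ∑ v ∈ e, g v = ∑ v : V, (deg S v : ℚ) * g v := by
  have h1 : ∀ e ∈ S, ∑ v ∈ e, g v = ∑ v : V, if v ∈ e then g v else 0 := by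
    intro e _
    rw [← sum_filter]
    congr 1
    ext v; simp
  rw [sum_congr rfl h1, sum_comm]
  refine sum_congr rfl ?_
  intro v _
  rw [← sum_filter, sum_const, nsmul_eq_mul]
  rfl

lemma partite_card {r : ℕ} {c : V → Fin r} {S : Finset (Finset V)} (hS : IsPartite c S)
    {e : Finset V} (he : e ∈ S) : e.card = r := by
  have h : e.card = ∑ i : Fin r, (e.filter (fun v => c v = i)).card :=
    card_eq_sum_card_fiberwise (fun v _ => mem_coe.mpr (mem_univ (c v)))
  rw [h]
  have h1 : ∀ i : Fin r, (e.filter (fun v => c v = i)).card = 1 := by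
    intro i
    obtain ⟨v, hv, huniq⟩ := hS e he i
    rw [card_eq_one]
    refine ⟨v, ?_⟩
    ext w
    rw [mem_filter, mem_singleton]
    constructor
    · intro hw; exact huniq w hw
    · rintro rfl; exact hv
  simp [h1]

/-- The key step when no vertex has degree one. -/
lemma key {r : ℕ} (hr : 2 ≤ r) {c : V → Fin r} {S : Finset (Finset V)} (hS : IsPartite c S)
    (Δ s : ℕ) (hs : 1 ≤ s)
    (hcond : ∀ d : ℕ, 2 ≤ d → d ≤ Δ →
      s * (s + 1) + (r - 1) * (d * (r * (d - 1))) ≤ (r - 1) * (d * (2 * s)))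
    (hdeg : ∀ v, deg S v ≤ Δ) (h1 : ∀ v, deg S v ≠ 1) :
    ∃ C M, IsCover S C ∧ IsMatching S M ∧ C.card ≤ (r - 1) * M.card := by
  obtain ⟨M, hM, hMc⟩ := caroWei (S.card) S le_rfl (fun e he => by
    rw [← card_pos, partite_card hS he]; omega)
  have hrQ : (2 : ℚ) ≤ r := by exact_mod_cast hr
  have hsQ : (1 : ℚ) ≤ s := by exact_mod_cast hs
  -- the vertices of positive degree
  set W : Finset V := univ.filter (fun v => 0 < deg S v) with hW
  -- pointwise secant bound
  have hsec : ∀ e ∈ S, (2 * (s : ℚ) - ∑ v ∈ e, ((deg S v : ℚ) - 1)) / (s * (s + 1)) ≤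
      1 / (cd S e : ℚ) := by
    intro e he
    have hx : (cd S e : ℚ) ≤ 1 + ((∑ v ∈ e, (deg S v - 1) : ℕ) : ℚ) := by
      exact_mod_cast cd_le S e he
    have hcdpos : (0 : ℚ) < cd S e := by
      have : 0 < cd S e := by
        refine card_pos.mpr ⟨e, ?_⟩
        rw [mem_filter]
        refine ⟨he, ?_⟩
        rw [disjoint_self_iff_empty, ← card_eq_zero, partite_card hS he]
        omega
      exact_mod_cast this
    have hcast : ((∑ v ∈ e, (deg S v - 1) : ℕ) : ℚ) = ∑ v ∈ e, ((deg S v : ℚ) - 1) := by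
      rw [Nat.cast_sum]
      refine sum_congr rfl ?_
      intro v hv
      have : 1 ≤ deg S v := card_pos.mpr ⟨e, mem_filter.mpr ⟨he, hv⟩⟩
      rw [Nat.cast_sub this]; simp
    rw [← hcast]
    set x : ℕ := ∑ v ∈ e, (deg S v - 1) with hxdef
    have hxs : (0 : ℚ) ≤ ((x : ℚ) - s) * ((x : ℚ) - s + 1) := by
      rcases lt_or_ge x s with h | h
      · have h2 : (x : ℚ) + 1 ≤ s := by exact_mod_cast h
        nlinarith
      · have h2 : (s : ℚ) ≤ x := by exact_mod_cast h
        nlinarith
    have hxpos : (0 : ℚ) ≤ x := Nat.cast_nonneg x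
    calc (2 * (s : ℚ) - x) / (s * (s + 1)) ≤ 1 / (1 + (x : ℚ)) := by
          rw [div_le_div_iff₀ (by positivity) (by positivity)]
          nlinarith
      _ ≤ 1 / (cd S e : ℚ) := one_div_le_one_div_of_le hcdpos hx
  -- sum up
  have hsum : ∑ e ∈ S, (2 * (s : ℚ) - ∑ v ∈ e, ((deg S v : ℚ) - 1)) / (s * (s + 1)) ≤ M.card :=
    le_trans (sum_le_sum hsec) hMc
  rw [← sum_div, sum_sub_distrib, double_count, sum_const, nsmul_eq_mul,
    div_le_iff₀ (by positivity)] at hsum
  have hcount : (r : ℚ) * S.card = ∑ v : V, (deg S v : ℚ) := by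
    have := double_count S (fun _ => (1 : ℚ))
    simp only [mul_one, sum_const, nsmul_eq_mul] at this
    rw [← this]
    rw [sum_congr rfl (fun e he => by rw [partite_card hS he])]
    rw [sum_const, nsmul_eq_mul]; ring
  -- the vertex inequality
  have hvert : ∀ v : V, (if 0 < deg S v then ((s : ℚ) * (s + 1)) else 0) ≤
      ((r : ℚ) - 1) * ((deg S v : ℚ) * (2 * s) - r * ((deg S v : ℚ) * ((deg S v : ℚ) - 1))) := by
    intro v
    split_ifs with hv
    · have h2 : 2 ≤ deg S v := by have := h1 v; omega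
      have h := hcond (deg S v) h2 (hdeg v)
      obtain ⟨d', hd'⟩ : ∃ d', deg S v = d' + 1 := ⟨deg S v - 1, by omega⟩
      obtain ⟨r', hr'⟩ : ∃ r', r = r' + 1 := ⟨r - 1, by omega⟩
      rw [hd'] at h ⊢
      have hrr : ((r : ℚ)) = r' + 1 := by exact_mod_cast hr'
      have h' : ((s * (s + 1) + (r - 1) * ((d' + 1) * (r * (d' + 1 - 1))) : ℕ) : ℚ) ≤
          (((r - 1) * ((d' + 1) * (2 * s)) : ℕ) : ℚ) := by exact_mod_cast h
      have e1 : r - 1 = r' := by omega
      have e2 : d' + 1 - 1 = d' := by omega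
      rw [e1, e2] at h'
      push_cast at h' ⊢
      rw [hrr] at h' ⊢
      nlinarith
    · have : deg S v = 0 := by omega
      rw [this]; simp
  have hWsum : ((s : ℚ) * (s + 1)) * W.card ≤
      ((r : ℚ) - 1) * (r * (M.card * (s * (s + 1)))) := by
    have h3 := sum_le_sum (fun v (_ : v ∈ (univ : Finset V)) => hvert v)
    rw [← mul_sum, sum_sub_distrib, ← sum_mul, ← mul_sum, ← hcount, ← sum_filter, sum_const,
      nsmul_eq_mul] at h3
    have h4 : ((r : ℚ) - 1) * ((r : ℚ) * S.card * (2 * s) -
        r * ∑ v : V, (deg S v : ℚ) * ((deg S v : ℚ) - 1)) ≤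
        ((r : ℚ) - 1) * (r * (M.card * (s * (s + 1)))) := by
      refine mul_le_mul_of_nonneg_left ?_ (by linarith)
      have : (r : ℚ) * (S.card * (2 * s) - ∑ v : V, (deg S v : ℚ) * ((deg S v : ℚ) - 1)) ≤
          r * (M.card * (s * (s + 1))) := mul_le_mul_of_nonneg_left hsum (by linarith)
      linarith
    have h5 : ((W.card : ℚ)) * ((s : ℚ) * (s + 1)) ≤ _ := le_trans h3 h4
    linarith
  have hWle : (W.card : ℚ) ≤ ((r : ℚ) - 1) * (r * M.card) := by
    have hpos : (0 : ℚ) < (s : ℚ) * (s + 1) := by positivity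
    have : ((s : ℚ) * (s + 1)) * W.card ≤ ((s : ℚ) * (s + 1)) * (((r : ℚ) - 1) * (r * M.card)) := by
      calc _ ≤ _ := hWsum
        _ = _ := by ring
    exact le_of_mul_le_mul_left this hpos
  have hWnat : W.card ≤ (r - 1) * (r * M.card) := by
    have : (W.card : ℚ) ≤ (((r - 1) * (r * M.card) : ℕ) : ℚ) := by
      push_cast
      rw [Nat.cast_sub (by omega : 1 ≤ r)]
      simpa using hWle
    exact_mod_cast this
  -- choose the smallest part
  have hfib : W.card = ∑ i : Fin r, (W.filter (fun v => c v = i)).card :=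
    card_eq_sum_card_fiberwise (fun v _ => mem_coe.mpr (mem_univ (c v)))
  have : Nonempty (Fin r) := ⟨⟨0, by omega⟩⟩
  obtain ⟨i, -, hi⟩ : ∃ i ∈ (univ : Finset (Fin r)),
      (W.filter (fun v => c v = i)).card ≤ (r - 1) * M.card := by
    by_contra hcon
    push Not at hcon
    have : ∑ i : Fin r, ((r - 1) * M.card) < ∑ i : Fin r, (W.filter (fun v => c v = i)).card :=
      sum_lt_sum_of_nonempty univ_nonempty hcon
    rw [← hfib, sum_const, card_univ, Fintype.card_fin, smul_eq_mul] at this
    have h6 : r * ((r - 1) * M.card) = (r - 1) * (r * M.card) := by ring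
    omega
  refine ⟨W.filter (fun v => c v = i), M, ?_, hM, hi⟩
  intro e he
  obtain ⟨v, ⟨hve, hvi⟩, -⟩ := hS e he i
  refine ⟨v, hve, ?_⟩
  rw [mem_filter, hW, mem_filter]
  exact ⟨⟨mem_univ _, card_pos.mpr ⟨e, mem_filter.mpr ⟨he, hve⟩⟩⟩, hvi⟩

/-- Cover and matching for all subfamilies, by induction. -/
lemma main {r : ℕ} (hr : 2 ≤ r) (c : V → Fin r) (Δ s : ℕ) (hs : 1 ≤ s)
    (hcond : ∀ d : ℕ, 2 ≤ d → d ≤ Δ →
      s * (s + 1) + (r - 1) * (d * (r * (d - 1))) ≤ (r - 1) * (d * (2 * s))) (n : ℕ) :
    ∀ S : Finset (Finset V), S.card ≤ n → IsPartite c S → (∀ v, deg S v ≤ Δ) →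
    ∃ C M, IsCover S C ∧ IsMatching S M ∧ C.card ≤ (r - 1) * M.card := by
  induction n with
  | zero =>
    intro S hS _ _
    have : S = ∅ := card_eq_zero.mp (Nat.le_zero.mp hS)
    subst this
    exact ⟨∅, ∅, by intro e he; simp at he, ⟨by simp, by simp⟩, by simp⟩
  | succ n ih =>
    intro S hScard hS hdeg
    by_cases h1 : ∀ v, deg S v ≠ 1
    · exact key hr hS Δ s hs hcond hdeg h1
    push Not at h1
    obtain ⟨v, hv⟩ := h1
    obtain ⟨e, he⟩ := card_eq_one.mp hv
    have hemem : e ∈ S ∧ v ∈ e := by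
      have : e ∈ S.filter (fun e => v ∈ e) := by rw [he]; exact mem_singleton_self e
      exact mem_filter.mp this
    have huniq : ∀ f ∈ S, v ∈ f → f = e := by
      intro f hf hvf
      have : f ∈ S.filter (fun e => v ∈ e) := mem_filter.mpr ⟨hf, hvf⟩
      rw [he] at this
      exact mem_singleton.mp this
    have hecard := partite_card hS hemem.1
    have hsub : S.filter (fun f => Disjoint f e) ⊆ S := filter_subset _ _
    have henot : e ∉ S.filter (fun f => Disjoint f e) := by
      intro h
      have := (mem_filter.mp h).2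
      rw [disjoint_self_iff_empty] at this
      rw [this] at hemem
      simp at hemem
    have hlt : (S.filter (fun f => Disjoint f e)).card < S.card :=
      card_lt_card ((ssubset_iff_of_subset hsub).mpr ⟨e, hemem.1, henot⟩)
    obtain ⟨C, M, hC, hM, hle⟩ := ih (S.filter (fun f => Disjoint f e)) (by omega)
      (fun f hf => hS f (hsub hf))
      (fun w => le_trans (card_le_card (filter_subset_filter _ hsub)) (hdeg w))
    have heM : e ∉ M := fun h => henot (hM.1 h)
    refine ⟨C ∪ e.erase v, insert e M, ?_, ⟨?_, ?_⟩, ?_⟩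
    · intro f hf
      by_cases hd : Disjoint f e
      · obtain ⟨u, hu, huC⟩ := hC f (mem_filter.mpr ⟨hf, hd⟩)
        exact ⟨u, hu, mem_union_left _ huC⟩
      · rw [not_disjoint_iff] at hd
        obtain ⟨u, huf, hue⟩ := hd
        by_cases huv : u = v
        · subst huv
          have hfe := huniq f hf huf
          subst hfe
          have : 0 < (f.erase u).card := by
            rw [card_erase_of_mem hue]; omega
          obtain ⟨w, hw⟩ := card_pos.mp this
          exact ⟨w, mem_of_mem_erase hw, mem_union_right _ hw⟩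
        · exact ⟨u, huf, mem_union_right _ (mem_erase.mpr ⟨huv, hue⟩)⟩
    · intro f hf
      rcases mem_insert.mp hf with rfl | hf
      · exact hemem.1
      · exact hsub (hM.1 hf)
    · intro f hf g hg hfg
      rcases mem_insert.mp hf with rfl | hf'
      · rcases mem_insert.mp hg with rfl | hg'
        · exact absurd rfl hfg
        · exact (mem_filter.mp (hM.1 hg')).2.symm
      · rcases mem_insert.mp hg with rfl | hg'
        · exact (mem_filter.mp (hM.1 hf')).2
        · exact hM.2 f hf' g hg' hfg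
    · rw [card_insert_of_notMem heM]
      calc (C ∪ e.erase v).card ≤ C.card + (e.erase v).card := card_union_le _ _
        _ ≤ (r - 1) * M.card + (r - 1) := by
            rw [card_erase_of_mem hemem.2, hecard]; omega
        _ = (r - 1) * (M.card + 1) := by ring

lemma numbers {r : ℕ} (S : Finset (Finset V)) (C : Finset V) (M : Finset (Finset V))
    (hC : IsCover S C) (hM : IsMatching S M) (h : C.card ≤ (r - 1) * M.card) :
    coverNumber S ≤ (r - 1) * matchingNumber S := by
  have h1 : coverNumber S ≤ C.card := Nat.sInf_le ⟨C, hC, rfl⟩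
  have h2 : M.card ≤ matchingNumber S := by
    refine le_csSup ⟨S.card, ?_⟩ ⟨M, hM, rfl⟩
    rintro k ⟨N, hN, rfl⟩
    exact card_le_card hN.1
  exact le_trans h1 (le_trans h (Nat.mul_le_mul_left _ h2))

/-- **Ryser's conjecture for small maximum degree.** Every `r`-partite `r`-uniform hypergraph
`E` satisfies `τ(E) ≤ (r - 1) ν(E)` when its maximum degree is at most `3` (and `r ≥ 4`), at
most `4` (and `r ≥ 6`), or at most `5` (and `r ≥ 13`). -/
theorem result {V : Type} [Fintype V] [DecidableEq V] (r : ℕ) (c : V → Fin r)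
    (E : Finset (Finset V)) (hE : IsPartite c E)
    (hdeg : (4 ≤ r ∧ ∀ v, deg E v ≤ 3) ∨ (6 ≤ r ∧ ∀ v, deg E v ≤ 4) ∨
      (13 ≤ r ∧ ∀ v, deg E v ≤ 5)) :
    coverNumber E ≤ (r - 1) * matchingNumber E := by
  rcases hdeg with ⟨hr, hd⟩ | ⟨hr, hd⟩ | ⟨hr, hd⟩
  · obtain ⟨C, M, hC, hM, h⟩ := main (by omega) c 3 (2 * r) (by omega) (by
      intro d h2 h3
      obtain ⟨k, rfl⟩ : ∃ k, r = k + 4 := ⟨r - 4, by omega⟩
      interval_cases d
      · have : k + 4 - 1 = k + 3 := by omega
        rw [this]; ring_nf; nlinarith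
      · have : k + 4 - 1 = k + 3 := by omega
        rw [this]; ring_nf; nlinarith) E.card E le_rfl hE hd
    exact numbers E C M hC hM h
  · obtain ⟨C, M, hC, hM, h⟩ := main (by omega) c 4 (2 * r + 3) (by omega) (by
      intro d h2 h3
      obtain ⟨k, rfl⟩ : ∃ k, r = k + 6 := ⟨r - 6, by omega⟩
      have : k + 6 - 1 = k + 5 := by omega
      rw [this]
      interval_cases d <;> · ring_nf; nlinarith) E.card E le_rfl hE hd
    exact numbers E C M hC hM h
  · obtain ⟨C, M, hC, hM, h⟩ := main (by omega) c 5 (3 * r) (by omega) (by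
      intro d h2 h3
      obtain ⟨k, rfl⟩ : ∃ k, r = k + 13 := ⟨r - 13, by omega⟩
      have : k + 13 - 1 = k + 12 := by omega
      rw [this]
      interval_cases d <;> · ring_nf; nlinarith) E.card E le_rfl hE hd
    exact numbers E C M hC hM h

end Vale.Agent.Results.P045.DegreeRyser
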