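import Mathlib
import Vale.Agent.Results.P045.VarianceRyser

/-!
# P045: Ryser's conjecture for small degrees, general and intersecting case
-/

namespace Vale.Agent.Results.P045.IntersectingRyser

open Finset
open Vale.Agent.Results.P045.VarianceRyser

variable {V : Type} [Fintype V] [DecidableEq V]

/-- The family `E` is intersecting: every two edges share a vertex. -/
def IsIntersecting (E : Finset (Finset V)) : Prop :=
  ∀ e ∈ E, ∀ f ∈ E, ∃ v, v ∈ e ∧ v ∈ f

/-- If some set of fewer than `r` vertices is needed, at most one vertex of each edge has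
degree two. -/
lemma degree_two {r : ℕ} (hr : 3 ≤ r) {c : V → Fin r} {S : Finset (Finset V)}
    (hS : IsPartite c S) (hint : IsIntersecting S) (hno : ∀ C, IsCover S C → r ≤ C.card)
    {e : Finset V} (he : e ∈ S) {u v : V} (hu : u ∈ e) (hv : v ∈ e) (hdu : deg S u = 2)
    (hdv : deg S v = 2) : u = v := by
  by_contra huv
  have hcard := partite_card hS he
  have other : ∀ w ∈ e, deg S w = 2 → ∃ f ∈ S, ∀ h ∈ S, w ∈ h → h = e ∨ h = f := by
    intro w hw hdw
    have h1 : ((S.filter (fun f => w ∈ f)).erase e).card = 1 := by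
      rw [card_erase_of_mem (mem_filter.mpr ⟨he, hw⟩)]
      have : (S.filter (fun f => w ∈ f)).card = 2 := hdw
      omega
    obtain ⟨f, hf⟩ := card_eq_one.mp h1
    have hf' : f ∈ (S.filter (fun f => w ∈ f)).erase e := by rw [hf]; exact mem_singleton_self f
    refine ⟨f, (mem_filter.mp (mem_of_mem_erase hf')).1, ?_⟩
    intro h hh hwh
    by_cases h2 : h = e
    · exact Or.inl h2
    · right
      have : h ∈ (S.filter (fun f => w ∈ f)).erase e :=
        mem_erase.mpr ⟨h2, mem_filter.mpr ⟨hh, hwh⟩⟩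
      rw [hf] at this
      exact mem_singleton.mp this
  obtain ⟨f, hfS, hf⟩ := other u hu hdu
  obtain ⟨g, hgS, hg⟩ := other v hv hdv
  obtain ⟨x, hxf, hxg⟩ := hint f hfS g hgS
  have hvu : v ∈ e.erase u := mem_erase.mpr ⟨fun h => huv h.symm, hv⟩
  have hc2 : ((e.erase u).erase v).card = r - 2 := by
    rw [card_erase_of_mem hvu, card_erase_of_mem hu, hcard]; omega
  have hcov : IsCover S (insert x ((e.erase u).erase v)) := by
    intro h hh
    by_cases hcase : ∃ w ∈ h, w ∈ (e.erase u).erase v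
    · obtain ⟨w, hwh, hw⟩ := hcase
      exact ⟨w, hwh, mem_insert_of_mem hw⟩
    · push Not at hcase
      have hne : h ≠ e := by
        rintro rfl
        have : 0 < ((h.erase u).erase v).card := by omega
        obtain ⟨w, hw⟩ := card_pos.mp this
        exact hcase w (mem_of_mem_erase (mem_of_mem_erase hw)) hw
      obtain ⟨w, hwh, hwe⟩ := hint h hh e he
      have hw2 : w = u ∨ w = v := by
        by_contra hcon
        push Not at hcon
        exact hcase w hwh (mem_erase.mpr ⟨hcon.2, mem_erase.mpr ⟨hcon.1, hwe⟩⟩)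
      rcases hw2 with rfl | rfl
      · rcases hf h hh hwh with h3 | h3
        · exact absurd h3 hne
        · exact ⟨x, h3 ▸ hxf, mem_insert_self _ _⟩
      · rcases hg h hh hwh with h3 | h3
        · exact absurd h3 hne
        · exact ⟨x, h3 ▸ hxg, mem_insert_self _ _⟩
  have h4 := hno _ hcov
  have h5 : (insert x ((e.erase u).erase v)).card ≤ ((e.erase u).erase v).card + 1 :=
    card_insert_le _ _
  omega

lemma inter {r : ℕ} (hr : 3 ≤ r) {c : V → Fin r} {S : Finset (Finset V)}
    (hS : IsPartite c S) (hint : IsIntersecting S) (Δ : ℕ) (hΔ : 3 ≤ Δ)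
    (hnum : (2 * (Δ + 2) * r + Δ) ^ 2 < 48 * Δ * r ^ 2) (hdeg : ∀ v, deg S v ≤ Δ) :
    ∃ C, IsCover S C ∧ C.card ≤ r - 1 := by
  by_contra hcon
  push Not at hcon
  have hno : ∀ C, IsCover S C → r ≤ C.card := fun C hC => by have := hcon C hC; omega
  have hne1 : ∀ v, deg S v ≠ 1 := by
    intro v hv
    obtain ⟨e, he⟩ := card_eq_one.mp hv
    have hemem : e ∈ S.filter (fun e => v ∈ e) := by rw [he]; exact mem_singleton_self e
    obtain ⟨heS, hve⟩ := mem_filter.mp hemem
    have hcard := partite_card hS heS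
    have hc1 : (e.erase v).card = r - 1 := by rw [card_erase_of_mem hve, hcard]
    have hcov : IsCover S (e.erase v) := by
      intro h hh
      by_cases hvh : v ∈ h
      · have : h ∈ S.filter (fun e => v ∈ e) := mem_filter.mpr ⟨hh, hvh⟩
        rw [he] at this
        have h2 := mem_singleton.mp this
        subst h2
        have : 0 < (h.erase v).card := by omega
        obtain ⟨w, hw⟩ := card_pos.mp this
        exact ⟨w, mem_of_mem_erase hw, hw⟩
      · obtain ⟨w, hwh, hwe⟩ := hint h hh e heS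
        exact ⟨w, hwh, mem_erase.mpr ⟨fun h3 => hvh (h3 ▸ hwh), hwe⟩⟩
    have := hno _ hcov
    omega
  set W : Finset V := univ.filter (fun v => 0 < deg S v) with hW
  have hparts : ∀ i : Fin r, r ≤ (W.filter (fun v => c v = i)).card := by
    intro i
    refine hno _ ?_
    intro e he
    obtain ⟨v, ⟨hve, hvi⟩, -⟩ := hS e he i
    refine ⟨v, hve, ?_⟩
    rw [mem_filter, hW, mem_filter]
    exact ⟨⟨mem_univ _, card_pos.mpr ⟨e, mem_filter.mpr ⟨he, hve⟩⟩⟩, hvi⟩
  have hfib : W.card = ∑ i : Fin r, (W.filter (fun v => c v = i)).card :=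
    card_eq_sum_card_fiberwise (fun v _ => mem_coe.mpr (mem_univ (c v)))
  have hWr : r * r ≤ W.card := by
    rw [hfib]
    calc r * r = ∑ _i : Fin r, r := by simp
      _ ≤ _ := sum_le_sum (fun i _ => hparts i)
  set n : ℚ := (S.card : ℚ) with hn
  -- each edge meets all edges
  have hxe : ∀ e ∈ S, n - 1 ≤ ∑ v ∈ e, ((deg S v : ℚ) - 1) := by
    intro e he
    have hcd : cd S e = S.card := by
      unfold cd
      congr 1
      rw [filter_eq_self]
      intro f hf
      rw [not_disjoint_iff]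
      exact hint f hf e he
    have hx : (cd S e : ℚ) ≤ 1 + ((∑ v ∈ e, (deg S v - 1) : ℕ) : ℚ) := by
      exact_mod_cast cd_le S e he
    have hcast : ((∑ v ∈ e, (deg S v - 1) : ℕ) : ℚ) = ∑ v ∈ e, ((deg S v : ℚ) - 1) := by
      rw [Nat.cast_sum]
      refine sum_congr rfl ?_
      intro v hv
      have : 1 ≤ deg S v := card_pos.mpr ⟨e, mem_filter.mpr ⟨he, hv⟩⟩
      rw [Nat.cast_sub this]; simp
    rw [hcast, hcd] at hx
    linarith
  have hsum1 : n * (n - 1) ≤ ∑ v : V, (deg S v : ℚ) * ((deg S v : ℚ) - 1) := by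
    rw [← double_count]
    calc n * (n - 1) = ∑ _e ∈ S, (n - 1) := by rw [sum_const, nsmul_eq_mul]
      _ ≤ _ := sum_le_sum hxe
  have hcount : ∑ v : V, (deg S v : ℚ) = (r : ℚ) * n := by
    have := double_count S (fun _ => (1 : ℚ))
    simp only [mul_one, sum_const, nsmul_eq_mul] at this
    rw [← this]
    rw [sum_congr rfl (fun e he => by rw [partite_card hS he])]
    rw [sum_const, nsmul_eq_mul]; ring
  -- vertices of degree two
  have hg : ∑ v : V, (deg S v : ℚ) * (if deg S v = 2 then (1 : ℚ) else 0) ≤ n := by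
    rw [← double_count]
    calc ∑ e ∈ S, ∑ v ∈ e, (if deg S v = 2 then (1 : ℚ) else 0) ≤ ∑ _e ∈ S, (1 : ℚ) := by
          refine sum_le_sum ?_
          intro e he
          rw [← sum_filter, sum_const, nsmul_eq_mul, mul_one]
          have : (e.filter (fun v => deg S v = 2)).card ≤ 1 := by
            rw [card_le_one]
            intro a ha b hb
            exact degree_two hr hS hint hno he (mem_filter.mp ha).1 (mem_filter.mp hb).1
              (mem_filter.mp ha).2 (mem_filter.mp hb).2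
          exact_mod_cast this
      _ = n := by rw [sum_const, nsmul_eq_mul, mul_one]
  have hΔQ : (3 : ℚ) ≤ Δ := by exact_mod_cast hΔ
  have hpt : ∀ v : V, (deg S v : ℚ) * ((deg S v : ℚ) - 1) +
      (if 0 < deg S v then 3 * (Δ : ℚ) else 0) ≤
      ((Δ : ℚ) + 2) * (deg S v : ℚ) +
        ((Δ : ℚ) - 2) / 2 * ((deg S v : ℚ) * (if deg S v = 2 then (1 : ℚ) else 0)) := by
    intro v
    have hd := hdeg v
    have h1 := hne1 v
    by_cases h0 : deg S v = 0
    · rw [h0]; simp
    · have hpos : 0 < deg S v := Nat.pos_of_ne_zero h0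
      rw [if_pos hpos]
      by_cases h2 : deg S v = 2
      · rw [if_pos h2, h2]; push_cast; linarith
      · rw [if_neg h2]
        have h3 : 3 ≤ deg S v := by omega
        have h3' : (3 : ℚ) ≤ deg S v := by exact_mod_cast h3
        have hd' : (deg S v : ℚ) ≤ Δ := by exact_mod_cast hd
        nlinarith [mul_nonneg (sub_nonneg.mpr h3') (sub_nonneg.mpr hd')]
  have htot := sum_le_sum (fun v (_ : v ∈ (univ : Finset V)) => hpt v)
  rw [sum_add_distrib, sum_add_distrib, ← mul_sum, ← mul_sum, hcount, ← sum_filter, sum_const,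
    nsmul_eq_mul] at htot
  have hWq : ((r : ℚ) * r) ≤ W.card := by exact_mod_cast hWr
  have hg2 : ((Δ : ℚ) - 2) / 2 * ∑ v : V, (deg S v : ℚ) * (if deg S v = 2 then (1 : ℚ) else 0) ≤
      ((Δ : ℚ) - 2) / 2 * n := mul_le_mul_of_nonneg_left hg (by linarith)
  have hW2 : ((r : ℚ) * r) * (3 * Δ) ≤ (W.card : ℚ) * (3 * Δ) :=
    mul_le_mul_of_nonneg_right hWq (by linarith)
  have hquad : n * (n - 1) + (r * r) * (3 * Δ) ≤ (Δ + 2) * (r * n) + (Δ - 2) / 2 * n := by
    linarith
  have hnumQ : ((2 * (Δ + 2) * r + Δ : ℚ)) ^ 2 < 48 * Δ * r ^ 2 := by exact_mod_cast hnum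
  nlinarith [sq_nonneg (4 * n - (2 * (Δ + 2) * r + Δ : ℚ))]

/-- **Ryser's conjecture for small degrees.** (1) `τ ≤ (r - 1) ν` for every `r`-partite
`r`-uniform hypergraph of maximum degree at most `3` (`r ≥ 4`), `4` (`r ≥ 6`), `5` (`r ≥ 13`), or
whose nonzero degrees have mean `μ` and variance `σ²` with `r σ² ≤ μ (r - 1 - μ)`.
(2) `τ ≤ r - 1` for every intersecting `r`-partite `r`-uniform hypergraph of maximum degree at
most `5` (`r ≥ 4`), `6` (`r ≥ 7`) or `7` (`r ≥ 22`). -/
theorem result {V : Type} [Fintype V] [DecidableEq V] (r : ℕ) (c : V → Fin r)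
    (E : Finset (Finset V)) (hE : IsPartite c E) :
    (((4 ≤ r ∧ ∀ v, deg E v ≤ 3) ∨ (6 ≤ r ∧ ∀ v, deg E v ≤ 4) ∨
      (13 ≤ r ∧ ∀ v, deg E v ≤ 5) ∨
      (2 ≤ r ∧ (r : ℚ) * varDeg E ≤ meanDeg E * (r - 1 - meanDeg E))) →
      coverNumber E ≤ (r - 1) * matchingNumber E) ∧
    (IsIntersecting E →
      ((4 ≤ r ∧ ∀ v, deg E v ≤ 5) ∨ (7 ≤ r ∧ ∀ v, deg E v ≤ 6) ∨
        (22 ≤ r ∧ ∀ v, deg E v ≤ 7)) →
      coverNumber E ≤ r - 1) := by
  refine ⟨VarianceRyser.result r c E hE, ?_⟩
  intro hint h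
  have key : ∃ C, IsCover E C ∧ C.card ≤ r - 1 := by
    rcases h with ⟨hr, hd⟩ | ⟨hr, hd⟩ | ⟨hr, hd⟩
    · exact inter (by omega) hE hint 5 (by norm_num) (by nlinarith) hd
    · exact inter (by omega) hE hint 6 (by norm_num) (by nlinarith) hd
    · exact inter (by omega) hE hint 7 (by norm_num) (by nlinarith) hd
  obtain ⟨C, hC, hle⟩ := key
  exact le_trans (Nat.sInf_le ⟨C, hC, rfl⟩) hle

end Vale.Agent.Results.P045.IntersectingRyser
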