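import Mathlib
import Vale.Agent.Results.P045.IntersectingRyser

/-!
# P045: classes of hypergraphs satisfying Ryser's inequality
-/

namespace Vale.Agent.Results.P045.RyserClasses

open Finset
open Vale.Agent.Results.P045.VarianceRyser Vale.Agent.Results.P045.IntersectingRyser

variable {V : Type} [Fintype V] [DecidableEq V]

lemma inter_variance {r : ℕ} (hr : 2 ≤ r) {c : V → Fin r} {S : Finset (Finset V)}
    (hS : IsPartite c S) (hint : IsIntersecting S)
    (h : (r : ℚ) * varDeg S < ((r : ℚ) - 1) * meanDeg S) :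
    ∃ C, IsCover S C ∧ C.card ≤ r - 1 := by
  by_contra hcon
  push Not at hcon
  have hno : ∀ C, IsCover S C → r ≤ C.card := fun C hC => by have := hcon C hC; omega
  have hWr : r * r ≤ (supp S).card := by
    have hfib : (supp S).card = ∑ i : Fin r, ((supp S).filter (fun v => c v = i)).card :=
      card_eq_sum_card_fiberwise (fun v _ => mem_coe.mpr (mem_univ (c v)))
    rw [hfib]
    calc r * r = ∑ _i : Fin r, r := by simp
      _ ≤ _ := by
        refine sum_le_sum (fun i _ => hno _ ?_)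
        intro e he
        obtain ⟨v, ⟨hve, hvi⟩, -⟩ := hS e he i
        refine ⟨v, hve, ?_⟩
        rw [mem_filter, supp, mem_filter]
        exact ⟨⟨mem_univ _, card_pos.mpr ⟨e, mem_filter.mpr ⟨he, hve⟩⟩⟩, hvi⟩
  have hrQ : (2 : ℚ) ≤ r := by exact_mod_cast hr
  have hWq : ((r : ℚ) * r) ≤ (supp S).card := by exact_mod_cast hWr
  have hw : (0 : ℚ) < (supp S).card := by nlinarith
  have hxe : ∀ e ∈ S, (S.card : ℚ) - 1 ≤ ∑ v ∈ e, ((deg S v : ℚ) - 1) := by
    intro e he
    have hcd : cd S e = S.card := by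
      unfold cd
      congr 1
      rw [filter_eq_self]
      intro f hf
      rw [not_disjoint_iff]
      exact hint f hf e he
    have hx : (cd S e : ℚ) ≤ 1 + ((∑ v ∈ e, (deg S v - 1) : ℕ) : ℚ) := by
      exact_mod_cast cd_le S e he
    have hcast : ((∑ v ∈ e, (deg S v - 1) : ℕ) : ℚ) = ∑ v ∈ e, ((deg S v : ℚ) - 1) := by
      rw [Nat.cast_sum]
      refine sum_congr rfl ?_
      intro v hv
      have : 1 ≤ deg S v := card_pos.mpr ⟨e, mem_filter.mpr ⟨he, hv⟩⟩
      rw [Nat.cast_sub this]; simp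
    rw [hcast, hcd] at hx
    linarith
  have hsupp : ∀ g : V → ℚ, ∑ v ∈ supp S, (deg S v : ℚ) * g v = ∑ v : V, (deg S v : ℚ) * g v := by
    intro g
    refine sum_subset (subset_univ _) ?_
    intro v _ hv
    have : deg S v = 0 := by
      by_contra h0
      exact hv (mem_filter.mpr ⟨mem_univ _, Nat.pos_of_ne_zero h0⟩)
    rw [this]; simp
  have hcount : ∑ v ∈ supp S, (deg S v : ℚ) = (r : ℚ) * S.card := by
    have h0 := hsupp (fun _ => (1 : ℚ))
    have := double_count S (fun _ => (1 : ℚ))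
    simp only [mul_one, sum_const, nsmul_eq_mul] at this h0
    rw [h0, ← this]
    rw [sum_congr rfl (fun e he => by rw [partite_card hS he])]
    rw [sum_const, nsmul_eq_mul]; ring
  set T : ℚ := ∑ v ∈ supp S, (deg S v : ℚ) * (deg S v : ℚ) with hT
  have hX : ∑ e ∈ S, ∑ v ∈ e, ((deg S v : ℚ) - 1) = T - r * S.card := by
    rw [double_count, ← hsupp, ← hcount, hT, ← sum_sub_distrib]
    refine sum_congr rfl ?_
    intro v _
    ring
  have hsum1 : (S.card : ℚ) * ((S.card : ℚ) - 1) ≤ T - r * S.card := by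
    rw [← hX]
    calc (S.card : ℚ) * ((S.card : ℚ) - 1) = ∑ _e ∈ S, ((S.card : ℚ) - 1) := by
          rw [sum_const, nsmul_eq_mul]
      _ ≤ _ := sum_le_sum hxe
  have hmean : meanDeg S * (supp S).card = (r : ℚ) * S.card := by
    rw [meanDeg, hcount]; field_simp
  have hvar : varDeg S * (supp S).card = T - meanDeg S * ((r : ℚ) * S.card) := by
    rw [varDeg, div_mul_cancel₀ _ hw.ne']
    have : ∀ v ∈ supp S, ((deg S v : ℚ) - meanDeg S) ^ 2 =
        (deg S v : ℚ) * (deg S v : ℚ) - 2 * meanDeg S * (deg S v : ℚ) + meanDeg S ^ 2 := by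
      intro v _; ring
    rw [sum_congr rfl this, sum_add_distrib, sum_sub_distrib, ← mul_sum, hcount, sum_const,
      nsmul_eq_mul, ← hT]
    have h2 : ((supp S).card : ℚ) * meanDeg S ^ 2 = meanDeg S * ((r : ℚ) * S.card) := by
      rw [← hmean]; ring
    rw [h2]; ring
  set w : ℚ := ((supp S).card : ℚ) with hwdef
  set n : ℚ := (S.card : ℚ) with hndef
  set μ : ℚ := meanDeg S with hμ
  set σ : ℚ := varDeg S with hσ
  have hn0 : 0 ≤ n := Nat.cast_nonneg _
  -- multiply the hypothesis by `w`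
  have h3 : (r : ℚ) * σ * w < ((r : ℚ) - 1) * μ * w := mul_lt_mul_of_pos_right h hw
  have h4 : (r : ℚ) * σ * w = r * (T - μ * (r * n)) := by rw [← hvar]; ring
  have h5 : ((r : ℚ) - 1) * μ * w = r * ((r - 1) * n) := by
    calc ((r : ℚ) - 1) * μ * w = (r - 1) * (μ * w) := by ring
      _ = (r - 1) * (r * n) := by rw [hmean]
      _ = _ := by ring
  rw [h4, h5] at h3
  have h6 : T - μ * (r * n) < (r - 1) * n := lt_of_mul_lt_mul_left h3 (by linarith)
  have h7 : n * n < n * (μ * r) := by nlinarith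
  have h8 : n < μ * r := lt_of_mul_lt_mul_left h7 hn0
  have h9 : n * w < r * (r * n) := by
    calc n * w < (μ * r) * w := mul_lt_mul_of_pos_right h8 hw
      _ = r * (μ * w) := by ring
      _ = r * (r * n) := by rw [hmean]
  have h10 : n * (r * r) ≤ n * w := mul_le_mul_of_nonneg_left hWq hn0
  nlinarith

/-- **Classes satisfying Ryser's inequality.** Let `E` be an `r`-partite `r`-uniform hypergraph.
(1) `τ ≤ (r - 1) ν` if the maximum degree is at most `3` (`r ≥ 4`), `4` (`r ≥ 6`), `5`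
(`r ≥ 13`), or if `r ≥ 2` and the mean `μ` and the variance `σ²` of the nonzero degrees satisfy
`r σ² ≤ μ (r - 1 - μ)`.
(2) `τ ≤ r - 1` if `E` is intersecting and the maximum degree is at most `5` (`r ≥ 4`), `6`
(`r ≥ 7`), `7` (`r ≥ 22`), or if `r ≥ 2` and `r σ² < (r - 1) μ`. -/
theorem result {V : Type} [Fintype V] [DecidableEq V] (r : ℕ) (c : V → Fin r)
    (E : Finset (Finset V)) (hE : IsPartite c E) :
    (((4 ≤ r ∧ ∀ v, deg E v ≤ 3) ∨ (6 ≤ r ∧ ∀ v, deg E v ≤ 4) ∨
      (13 ≤ r ∧ ∀ v, deg E v ≤ 5) ∨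
      (2 ≤ r ∧ (r : ℚ) * varDeg E ≤ meanDeg E * (r - 1 - meanDeg E))) →
      coverNumber E ≤ (r - 1) * matchingNumber E) ∧
    (IsIntersecting E →
      ((4 ≤ r ∧ ∀ v, deg E v ≤ 5) ∨ (7 ≤ r ∧ ∀ v, deg E v ≤ 6) ∨
        (22 ≤ r ∧ ∀ v, deg E v ≤ 7) ∨
        (2 ≤ r ∧ (r : ℚ) * varDeg E < (r - 1) * meanDeg E)) →
      coverNumber E ≤ r - 1) := by
  refine ⟨VarianceRyser.result r c E hE, ?_⟩
  intro hint h
  rcases h with h | h | h | ⟨hr, h⟩
  · exact (IntersectingRyser.result r c E hE).2 hint (Or.inl h)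
  · exact (IntersectingRyser.result r c E hE).2 hint (Or.inr (Or.inl h))
  · exact (IntersectingRyser.result r c E hE).2 hint (Or.inr (Or.inr h))
  · obtain ⟨C, hC, hle⟩ := inter_variance hr hE hint h
    exact le_trans (Nat.sInf_le ⟨C, hC, rfl⟩) hle

end Vale.Agent.Results.P045.RyserClasses
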